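import Vale.Agent.P154q3.TMQ
import Vale.Agent.P154q3.C.DMnn

namespace Vale.Agent.P154q3.C.Mnn

open Vale.Agent.P154q4.TMC Vale.Agent.P154q3.TMQ Tr3

set_option maxRecDepth 1000000

theorem c0 : chkRoot3 DMnn
  (zs 0 5592405 (zt 6849270 (ys 0 5592405 (yt 6849270 lf) (ys 1 5033165 lf (yt 9686331 (ys 0 8388608 (yt 8388609 lf) (zs 1 3424635 lf lf)))))) (ys 0 5592405 (yt 6849270 (zs 1 5033165 lf (zt 9686331 lf))) (zs 0 8388608 (zt 8388609 (ys 1 5033165 lf (yt 9686331 (ys 0 8388608 (yt 8388609 lf) (zs 1 4194304 lf lf))))) (ys 0 8388608 (yt 8388609 (zs 1 5033165 lf (zt 9686331 (ys 1 4194304 lf lf)))) (zs 1 5033165 (ys 1 5033165 (ys 0 9786709 lf (zs 0 9786709 lf lf)) (yt 9686331 (ys 0 9786709 (yt 9060733 lf) (yx 1)))) (zt 9686331 (ys 1 5033165 (zs 0 9786709 (zt 9060733 lf) (zx 1)) (yt 9686331 (zs 0 9786709 (zt 9060733 lf) (zx 1))))))))))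
  ⟨0, 11184811, 0, 10066330, 0, 0⟩ ⟨0, 11184811, 0, 10066330, 0, 0⟩ = true := by decide +kernel

end Vale.Agent.P154q3.C.Mnn
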